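import Vale.Agent.P080.Defs

namespace Vale.Agent.P080

open Set Metric Filter Topology

variable {d : ℕ}

lemma gradient_congr {φ ψ : E d → ℝ} {x : E d} (h : φ =ᶠ[𝓝 x] ψ) :
    gradient φ x = gradient ψ x := by
  unfold gradient
  rw [h.fderiv_eq]

lemma infLaplacian_congr {φ ψ : E d → ℝ} {x : E d} (h : φ =ᶠ[𝓝 x] ψ) :
    infLaplacian φ x = infLaplacian ψ x := by
  unfold infLaplacian
  rw [gradient_congr h, (h.iteratedFDeriv (𝕜 := ℝ) 2).eq_of_nhds]

lemma infLaplacian_neg (φ : E d → ℝ) (x : E d) :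
    infLaplacian (fun y => - φ y) x = - infLaplacian φ x := by
  unfold infLaplacian
  have h1 : gradient (fun y => - φ y) x = - gradient φ x := by
    unfold gradient
    rw [fderiv_fun_neg, map_neg]
  have h2 : iteratedFDeriv ℝ 2 (fun y => - φ y) x = - iteratedFDeriv ℝ 2 φ x := by
    exact iteratedFDeriv_neg_apply (𝕜 := ℝ) (i := 2) (f := φ) (x := x)
  rw [h1, h2]
  have h3 : (![- gradient φ x, - gradient φ x] : Fin 2 → E d)
      = fun i => (-1 : ℝ) • (![gradient φ x, gradient φ x] : Fin 2 → E d) i := by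
    funext i
    fin_cases i <;> simp
  rw [h3, neg_apply,
    ContinuousMultilinearMap.map_smul_univ]
  simp

lemma IsInfHarmonicOn.neg {u : E d → ℝ} {Ω : Set (E d)} (h : IsInfHarmonicOn u Ω) :
    IsInfHarmonicOn (fun y => - u y) Ω where
  cont := h.cont.neg
  sub := by
    intro z hz φ hφ hmax
    have h1 : IsLocalMin (fun y => u y - (fun w => - φ w) y) z := by
      have := hmax.neg
      refine this.congr (Eventually.of_forall fun y => ?_) 
      simp only []
      ring
    have h2 := h.sup z hz (fun w => - φ w) hφ.neg h1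
    rw [infLaplacian_neg] at h2
    linarith
  sup := by
    intro z hz φ hφ hmin
    have h1 : IsLocalMax (fun y => u y - (fun w => - φ w) y) z := by
      have := hmin.neg
      refine this.congr (Eventually.of_forall fun y => ?_) 
      simp only []
      ring
    have h2 := h.sub z hz (fun w => - φ w) hφ.neg h1
    rw [infLaplacian_neg] at h2
    linarith

/-- Any locally `C²` function is locally equal to a globally `C²` function. -/
lemma exists_contDiff_eventuallyEq {φ : E d → ℝ} {z : E d} (h : ContDiffAt ℝ 2 φ z) :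
    ∃ ψ : E d → ℝ, ContDiff ℝ 2 ψ ∧ ψ =ᶠ[𝓝 z] φ := by
  have h1 : ∀ᶠ y in 𝓝 z, ContDiffAt ℝ 2 φ y := h.eventually (by simp)
  obtain ⟨ε, hε, hball⟩ := Metric.eventually_nhds_iff_ball.1 h1
  let f : ContDiffBump z := ⟨ε / 4, ε / 2, by positivity, by linarith⟩
  refine ⟨fun y => f y * φ y, ?_, ?_⟩
  · rw [contDiff_iff_contDiffAt]
    intro y
    by_cases hy : y ∈ ball z ε
    · exact (f.contDiff.contDiffAt).mul (hball y hy)
    · have h2 : (fun y => f y * φ y) =ᶠ[𝓝 y] fun _ => 0 := by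
        have h3 : ∀ᶠ x in 𝓝 y, ε / 2 < dist x z := by
          have : Tendsto (fun x => dist x z) (𝓝 y) (𝓝 (dist y z)) :=
            (continuous_id.dist continuous_const).tendsto y
          apply this.eventually
          apply lt_mem_nhds
          rw [mem_ball, not_lt] at hy
          linarith
        filter_upwards [h3] with x hx
        have : f x = 0 := f.zero_of_le_dist (le_of_lt hx)
        rw [this, zero_mul]
      exact contDiffAt_const.congr_of_eventuallyEq h2
  · filter_upwards [f.eventuallyEq_one] with y hy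
    have : f y = 1 := hy
    rw [this, one_mul]

/-- The inner product as a real bilinear map. -/
noncomputable def ip (d : ℕ) : E d →L[ℝ] E d →L[ℝ] ℝ := innerSL ℝ

@[simp] lemma ip_apply (x y : E d) : ip d x y = inner ℝ x y := rfl

lemma infLaplacian_radial (z y : E d) (G G' : ℝ → ℝ) (G'' : ℝ)
    (hG : ∀ᶠ s in 𝓝 (‖y - z‖ ^ 2), HasDerivAt G (G' s) s)
    (hG' : HasDerivAt G' G'' (‖y - z‖ ^ 2)) :
    infLaplacian (fun x => G (‖x - z‖ ^ 2)) y =
      8 * (G' (‖y - z‖ ^ 2)) ^ 2 * ‖y - z‖ ^ 2 *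
        (2 * G'' * ‖y - z‖ ^ 2 + G' (‖y - z‖ ^ 2)) := by
  have hq : ∀ x : E d, HasFDerivAt (fun x => ‖x - z‖ ^ 2) ((2 : ℝ) • (ip d (x - z))) x := by
    intro x
    have := (hasFDerivAt_id x).sub_const z |>.norm_sq
    refine this.congr_fderiv ?_
    ext w
    simp
  have hcont : ContinuousAt (fun x : E d => ‖x - z‖ ^ 2) y := (hq y).continuousAt
  have h1 : ∀ᶠ x in 𝓝 y, HasFDerivAt (fun x => G (‖x - z‖ ^ 2))
      ((G' (‖x - z‖ ^ 2)) • ((2 : ℝ) • (ip d (x - z)))) x := by
    filter_upwards [hcont.eventually hG] with x hx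
    exact hx.comp_hasFDerivAt x (hq x)
  have h2 : fderiv ℝ (fun x => G (‖x - z‖ ^ 2)) =ᶠ[𝓝 y]
      fun x => (G' (‖x - z‖ ^ 2)) • ((2 : ℝ) • (ip d (x - z))) := by
    filter_upwards [h1] with x hx using hx.fderiv
  have h3 : HasFDerivAt (fun x : E d => (G' (‖x - z‖ ^ 2)) • ((2 : ℝ) • (ip d (x - z))))
      ((G' (‖y - z‖ ^ 2)) • ((2 : ℝ) • (ip d)) +
        (G'' • ((2 : ℝ) • (ip d (y - z)))).smulRight ((2 : ℝ) • (ip d (y - z)))) y := by
    have hA : HasFDerivAt (fun x : E d => G' (‖x - z‖ ^ 2)) (G'' • ((2 : ℝ) • (ip d (y - z)))) y :=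
      hG'.comp_hasFDerivAt y (hq y)
    have hB : HasFDerivAt (fun x : E d => ((2 : ℝ) • (ip d (x - z))))
        ((2 : ℝ) • (ip d)) y := by
      have : HasFDerivAt (fun x : E d => ip d (x - z)) (ip d) y := by
        have h5 : HasFDerivAt (fun x : E d => x - z) (ContinuousLinearMap.id ℝ (E d)) y :=
          (hasFDerivAt_id y).sub_const z
        have := ((ip d).hasFDerivAt (x := y - z)).comp y h5
        rw [ContinuousLinearMap.comp_id] at this
        exact this
      exact this.const_smul (2 : ℝ)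
    exact hA.smul hB
  have hgrad : gradient (fun x => G (‖x - z‖ ^ 2)) y = (2 * G' (‖y - z‖ ^ 2)) • (y - z) := by
    have := h1.self_of_nhds
    have h4 : HasGradientAt (fun x => G (‖x - z‖ ^ 2)) ((2 * G' (‖y - z‖ ^ 2)) • (y - z)) y := by
      rw [hasGradientAt_iff_hasFDerivAt]
      refine this.congr_fderiv ?_
      ext w
      generalize y - z = v
      simp
      ring
    exact h4.gradient
  unfold infLaplacian
  rw [iteratedFDeriv_two_apply, h2.fderiv_eq, h3.fderiv, hgrad]
  generalize y - z = v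
  simp
  ring

/-- The perturbed cone is a strict supersolution away from its vertex. -/
lemma infLaplacian_cone (z y : E d) (hy : y ≠ z) (b γ a : ℝ) :
    ContDiffAt ℝ 2 (fun x => a + b * ‖x - z‖ - γ * ‖x - z‖ ^ 2) y ∧
    infLaplacian (fun x => a + b * ‖x - z‖ - γ * ‖x - z‖ ^ 2) y =
      - (2 * γ * (b - 2 * γ * ‖y - z‖) ^ 2) := by
  have hρ : 0 < ‖y - z‖ := norm_pos_iff.2 (sub_ne_zero.2 hy)
  refine ⟨?_, ?_⟩
  · have h1 : ContDiffAt ℝ 2 (fun x : E d => ‖x - z‖) y :=
      (contDiffAt_id.sub contDiffAt_const).norm ℝ (sub_ne_zero.2 hy)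
    exact (contDiffAt_const.add (contDiffAt_const.mul h1)).sub (contDiffAt_const.mul (h1.pow 2))
  · have h0 : (fun x : E d => a + b * ‖x - z‖ - γ * ‖x - z‖ ^ 2) =
        fun x => (fun s => a + b * √s - γ * s) (‖x - z‖ ^ 2) := by
      funext x
      simp only [Real.sqrt_sq (norm_nonneg _)]
    have hq : 0 < ‖y - z‖ ^ 2 := by positivity
    have hG : ∀ᶠ s in 𝓝 (‖y - z‖ ^ 2),
        HasDerivAt (fun s => a + b * √s - γ * s) (b / (2 * √s) - γ) s := by
      filter_upwards [lt_mem_nhds hq] with s hs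
      have h1 := Real.hasDerivAt_sqrt hs.ne'
      have h2 := ((h1.const_mul b).const_add a).sub ((hasDerivAt_id s).const_mul γ)
      refine h2.congr_deriv ?_
      field_simp
    have hG' : HasDerivAt (fun s => b / (2 * √s) - γ)
        (- b / (4 * ‖y - z‖ ^ 3)) (‖y - z‖ ^ 2) := by
      have h1 := Real.hasDerivAt_sqrt hq.ne'
      have h2 := ((h1.const_mul 2).inv (by positivity)).const_mul b |>.sub_const γ
      refine (h2.congr_deriv ?_)
      rw [Real.sqrt_sq hρ.le]
      field_simp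
      ring
    rw [h0, infLaplacian_radial z y _ (fun s => b / (2 * √s) - γ) _ hG hG']
    simp only [Real.sqrt_sq hρ.le]
    field_simp
    ring

/-- Comparison with cones from above on balls. -/
lemma IsInfHarmonicOn.cone_above {u : E d → ℝ} {Ω : Set (E d)} (h : IsInfHarmonicOn u Ω)
    {z : E d} {R b : ℝ} (hR : 0 < R) (hb : closedBall z R ⊆ Ω)
    (hs : ∀ y ∈ sphere z R, u y ≤ u z + b * R) :
    ∀ y ∈ closedBall z R, u y ≤ u z + b * ‖y - z‖ := by
  intro y₁ hy₁
  by_contra hcon
  rw [not_le] at hcon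
  set η := u y₁ - (u z + b * ‖y₁ - z‖) with hη
  have hηpos : 0 < η := by linarith
  obtain ⟨γ, hγ, hγR, hγb⟩ : ∃ γ > 0, γ * R ^ 2 < η ∧ ∀ ρ, 0 < ρ → ρ ≤ R → b - 2 * γ * ρ ≠ 0 := by
    rcases le_or_gt b 0 with hb0 | hb0
    · refine ⟨η / (2 * R ^ 2), by positivity, ?_, ?_⟩
      · have : η / (2 * R ^ 2) * R ^ 2 = η / 2 := by field_simp
        linarith
      · intro ρ hρ _
        have : 0 < 2 * (η / (2 * R ^ 2)) * ρ := by positivity
        linarith
    · refine ⟨min (η / (2 * R ^ 2)) (b / (4 * R)), by positivity, ?_, ?_⟩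
      · have h1 : min (η / (2 * R ^ 2)) (b / (4 * R)) * R ^ 2 ≤ η / (2 * R ^ 2) * R ^ 2 :=
          mul_le_mul_of_nonneg_right (min_le_left _ _) (by positivity)
        have : η / (2 * R ^ 2) * R ^ 2 = η / 2 := by field_simp
        linarith
      · intro ρ hρ hρR
        have h1 : min (η / (2 * R ^ 2)) (b / (4 * R)) ≤ b / (4 * R) := min_le_right _ _
        have h0 : 0 < min (η / (2 * R ^ 2)) (b / (4 * R)) := by positivity
        have h2 : min (η / (2 * R ^ 2)) (b / (4 * R)) * ρ ≤ b / (4 * R) * R :=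
          mul_le_mul h1 hρR hρ.le (by positivity)
        have h3 : b / (4 * R) * R = b / 4 := by field_simp
        have : 2 * min (η / (2 * R ^ 2)) (b / (4 * R)) * ρ ≤ b / 2 := by linarith
        linarith
  set φ : E d → ℝ := fun x => (u z + γ * R ^ 2) + b * ‖x - z‖ - γ * ‖x - z‖ ^ 2 with hφ
  have hcont : ContinuousOn (fun y => u y - φ y) (closedBall z R) := by
    apply (h.cont.mono hb).sub
    apply Continuous.continuousOn
    rw [hφ]
    fun_prop
  obtain ⟨y₀, hy₀, hmax⟩ := (isCompact_closedBall z R).exists_isMaxOn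
    ⟨z, mem_closedBall_self hR.le⟩ hcont
  have hval₁ : 0 < u y₁ - φ y₁ := by
    have h1 : 0 ≤ γ * ‖y₁ - z‖ ^ 2 := by positivity
    simp only [hφ]
    linarith
  have hval₀ : 0 < u y₀ - φ y₀ := lt_of_lt_of_le hval₁ (hmax hy₁)
  have hne : y₀ ≠ z := by
    rintro rfl
    have h1 : 0 < γ * R ^ 2 := by positivity
    simp only [hφ, sub_self, norm_zero] at hval₀
    linarith
  have hball : y₀ ∈ ball z R := by
    rw [mem_ball]
    rw [mem_closedBall] at hy₀
    rcases lt_or_eq_of_le hy₀ with h1 | h1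
    · exact h1
    · exfalso
      have h2 := hs y₀ (by rw [mem_sphere]; exact h1)
      rw [dist_eq_norm] at h1
      simp only [hφ, h1] at hval₀
      linarith
  have hloc : IsLocalMax (fun y => u y - φ y) y₀ := by
    have := hmax.isLocalMax (mem_of_superset (isOpen_ball.mem_nhds hball) ball_subset_closedBall)
    exact this
  obtain ⟨hC2, hval⟩ := infLaplacian_cone z y₀ hne b γ (u z + γ * R ^ 2)
  obtain ⟨ψ, hψ, hψφ⟩ := exists_contDiff_eventuallyEq hC2
  have hloc' : IsLocalMax (fun y => u y - ψ y) y₀ := by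
    refine hloc.congr ?_
    filter_upwards [hψφ] with y hy
    rw [hy]
  have h1 := h.sub y₀ (hb (ball_subset_closedBall hball)) ψ hψ hloc'
  rw [infLaplacian_congr hψφ, hval] at h1
  have hρ : 0 < ‖y₀ - z‖ := norm_pos_iff.2 (sub_ne_zero.2 hne)
  have hρR : ‖y₀ - z‖ ≤ R := by
    rw [← dist_eq_norm]; exact (mem_ball.1 hball).le
  have h2 := hγb _ hρ hρR
  have h3 : 0 < 2 * γ * (b - 2 * γ * ‖y₀ - z‖) ^ 2 := by positivity
  linarith

/-- Comparison with cones from below on balls. -/
lemma IsInfHarmonicOn.cone_below {u : E d → ℝ} {Ω : Set (E d)} (h : IsInfHarmonicOn u Ω)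
    {z : E d} {R b : ℝ} (hR : 0 < R) (hb : closedBall z R ⊆ Ω)
    (hs : ∀ y ∈ sphere z R, u z - b * R ≤ u y) :
    ∀ y ∈ closedBall z R, u z - b * ‖y - z‖ ≤ u y := by
  intro y hy
  have h1 := h.neg.cone_above (z := z) (b := b) hR hb (fun y hy => by
    have := hs y hy
    linarith) y hy
  linarith

end Vale.Agent.P080
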