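import Mathlib

/-!
Definitions for P080: the infinity Laplacian, viscosity solutions.
-/

namespace Vale.Agent.P080

open Set Metric Filter Topology

/-- Euclidean `d`-space. -/
abbrev E (d : ℕ) := EuclideanSpace ℝ (Fin d)

/-- The (unnormalised) infinity Laplacian `⟨D²φ ∇φ, ∇φ⟩` of `φ` at `x`. -/
noncomputable def infLaplacian {d : ℕ} (φ : E d → ℝ) (x : E d) : ℝ :=
  iteratedFDeriv ℝ 2 φ x ![gradient φ x, gradient φ x]

/-- `u` is infinity-harmonic on `Ω`: it is continuous on `Ω` and a viscosity solution of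
`Δ_∞ u = 0` in `Ω`. -/
structure IsInfHarmonicOn {d : ℕ} (u : E d → ℝ) (Ω : Set (E d)) : Prop where
  cont : ContinuousOn u Ω
  sub : ∀ z ∈ Ω, ∀ φ : E d → ℝ, ContDiff ℝ 2 φ →
    IsLocalMax (fun y => u y - φ y) z → 0 ≤ infLaplacian φ z
  sup : ∀ z ∈ Ω, ∀ φ : E d → ℝ, ContDiff ℝ 2 φ →
    IsLocalMin (fun y => u y - φ y) z → infLaplacian φ z ≤ 0

/-- The points `x` of `Ω` for which there is a closed ball of radius `r` contained in `Ω`, having
`x` on its boundary sphere, such that `u x` is the maximum or the minimum of `u` over this ball. -/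
def ballExtremumPoints {d : ℕ} (u : E d → ℝ) (Ω : Set (E d)) (r : ℝ) : Set (E d) :=
  {x | ∃ z : E d, dist x z = r ∧ closedBall z r ⊆ Ω ∧
    ((∀ y ∈ closedBall z r, u y ≤ u x) ∨ (∀ y ∈ closedBall z r, u x ≤ u y))}

end Vale.Agent.P080
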