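import Vale.Agent.P080.Slope

namespace Vale.Agent.P080

open Set Metric Filter Topology

variable {d : ℕ}

lemma norm_smul_add_le {e h : E d} (he : ‖e‖ = 1) {ρ : ℝ} (hρ : 0 < ρ) (hh : ‖h‖ ≤ ρ) :
    ‖ρ • e + h‖ ≤ ρ + inner ℝ e h + ‖h‖ ^ 2 / (2 * ρ) := by
  have h1 : ‖ρ • e + h‖ ^ 2 = ρ ^ 2 + 2 * ρ * inner ℝ e h + ‖h‖ ^ 2 := by
    rw [norm_add_sq_real, norm_smul, he, inner_smul_left, Real.norm_of_nonneg hρ.le]
    simp
    ring
  have h2 : |inner ℝ e h| ≤ ‖h‖ := by
    have := abs_real_inner_le_norm e h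
    rwa [he, one_mul] at this
  have h3 := (abs_le.1 h2).1
  have h5 : 0 ≤ ‖h‖ ^ 2 / (2 * ρ) := by positivity
  have h4 : 0 ≤ ρ + inner ℝ e h + ‖h‖ ^ 2 / (2 * ρ) := by linarith
  apply le_of_sq_le_sq _ h4
  rw [h1]
  have h6 : (2 * ρ) * (‖h‖ ^ 2 / (2 * ρ)) = ‖h‖ ^ 2 := by field_simp
  have h7 : (ρ + inner ℝ e h + ‖h‖ ^ 2 / (2 * ρ)) ^ 2 = ρ ^ 2 + 2 * ρ * inner ℝ e h
      + (2 * ρ) * (‖h‖ ^ 2 / (2 * ρ)) + (inner ℝ e h + ‖h‖ ^ 2 / (2 * ρ)) ^ 2 := by ring
  rw [h7, h6]
  have := sq_nonneg (inner ℝ e h + ‖h‖ ^ 2 / (2 * ρ))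
  linarith

lemma norm_sub_sq_of_unit {e n : E d} (he : ‖e‖ = 1) (hn : ‖n‖ = 1) :
    ‖e - n‖ ^ 2 = 2 - 2 * inner ℝ e n := by
  rw [norm_sub_sq_real, he, hn]; ring

lemma norm_add_sq_of_unit {e n : E d} (he : ‖e‖ = 1) (hn : ‖n‖ = 1) :
    ‖e + n‖ ^ 2 = 2 + 2 * inner ℝ e n := by
  rw [norm_add_sq_real, he, hn]; ring

/-- Approximate linearity at scale `c * ρ`, when `u` is almost `slope`-Lipschitz up to
scale `ρ`. -/
lemma Cones.scale_linear [Nontrivial (E d)] {u : E d → ℝ} {Ω : Set (E d)} (h : Cones u Ω)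
    {x : E d} {c r₀ ρ : ℝ} (hc : 0 < c) (hc1 : c ≤ 1) (hL : 0 < slope u Ω x)
    (hsub : ball x r₀ ⊆ Ω)
    (hlip : ∀ y ∈ ball x r₀, ∀ y' ∈ ball x r₀,
      u y - u y' ≤ (slope u Ω x + c ^ 2 * slope u Ω x) * ‖y - y'‖)
    (hρ : 0 < ρ) (hρr : ρ < r₀) :
    ∃ e : E d, ‖e‖ = 1 ∧ ∀ k : E d, ‖k‖ ≤ c * ρ →
      |u (x + k) - u x - slope u Ω x * inner ℝ e k| ≤ 6 * c * slope u Ω x * (c * ρ) := by
  set L := slope u Ω x with hLdef
  have hcb : closedBall x ρ ⊆ ball x r₀ := closedBall_subset_ball hρr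
  obtain ⟨e₁, he₁, hup⟩ := h.exists_up hρ (hcb.trans hsub)
  obtain ⟨e₂, he₂, hdown⟩ := h.exists_down hρ (hcb.trans hsub)
  have hx1 : x + ρ • e₁ ∈ ball x r₀ := hcb (by
    rw [mem_closedBall, dist_eq_norm, add_sub_cancel_left, norm_smul, he₁,
      Real.norm_of_nonneg hρ.le, mul_one])
  have hx2 : x - ρ • e₂ ∈ ball x r₀ := hcb (by
    rw [mem_closedBall, dist_eq_norm, sub_sub_cancel_left, norm_neg, norm_smul, he₂,
      Real.norm_of_nonneg hρ.le, mul_one])
  -- the two directions are close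
  have hdir : ‖e₂ - e₁‖ ≤ 3 * c := by
    have h1 := hlip _ hx1 _ hx2
    have h2 : x + ρ • e₁ - (x - ρ • e₂) = ρ • (e₁ + e₂) := by rw [smul_add]; abel
    rw [h2, norm_smul, Real.norm_of_nonneg hρ.le] at h1
    have h3 : 2 * (L * ρ) ≤ (1 + c ^ 2) * ‖e₁ + e₂‖ * (L * ρ) := by
      have : (L + c ^ 2 * L) * (ρ * ‖e₁ + e₂‖) = (1 + c ^ 2) * ‖e₁ + e₂‖ * (L * ρ) := by ring
      linarith
    have h4 : 2 ≤ (1 + c ^ 2) * ‖e₁ + e₂‖ := le_of_mul_le_mul_right h3 (by positivity)
    have h5 : ‖e₁ + e₂‖ ≤ 2 := by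
      have := norm_add_le e₁ e₂
      rw [he₁, he₂] at this; linarith
    have h6 : ‖e₂ - e₁‖ ^ 2 + ‖e₁ + e₂‖ ^ 2 = 4 := by
      rw [add_comm e₁ e₂, norm_sub_sq_of_unit he₂ he₁, norm_add_sq_of_unit he₂ he₁]; ring
    have h7 : 2 - 2 * c ^ 2 ≤ ‖e₁ + e₂‖ := by
      have : c ^ 2 * ‖e₁ + e₂‖ ≤ c ^ 2 * 2 := mul_le_mul_of_nonneg_left h5 (by positivity)
      linarith
    have h8 : (2 - 2 * c ^ 2) ^ 2 ≤ ‖e₁ + e₂‖ ^ 2 := by
      apply pow_le_pow_left₀ _ h7
      have : c ^ 2 ≤ 1 := by nlinarith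
      linarith
    have h9 : ‖e₂ - e₁‖ ^ 2 ≤ (3 * c) ^ 2 := by nlinarith [sq_nonneg (c ^ 2)]
    exact le_of_sq_le_sq h9 (by positivity)
  refine ⟨e₂, he₂, fun k hk => ?_⟩
  have hkρ : ‖k‖ ≤ ρ := hk.trans (by nlinarith)
  have hxk : x + k ∈ ball x r₀ := hcb (by
    rw [mem_closedBall, dist_eq_norm, add_sub_cancel_left]; exact hkρ)
  have hk2 : ‖k‖ ^ 2 / (2 * ρ) ≤ c ^ 2 * ρ / 2 := by
    rw [div_le_iff₀ (by positivity)]
    have : ‖k‖ ^ 2 ≤ (c * ρ) ^ 2 := pow_le_pow_left₀ (norm_nonneg _) hk 2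
    nlinarith
  have hk3 : ∀ e : E d, ‖e‖ = 1 → |inner ℝ e k| ≤ c * ρ := by
    intro e he
    have := abs_real_inner_le_norm e k
    rw [he, one_mul] at this
    exact this.trans hk
  have hcρ : c * ρ ≤ ρ := by nlinarith
  have hc2 : c ^ 2 ≤ 1 := by nlinarith
  -- upper bound
  have hupper : u (x + k) - u x ≤ L * inner ℝ e₂ k + 3 * (L * c ^ 2 * ρ) := by
    have h1 := hlip _ hxk _ hx2
    have h2 : x + k - (x - ρ • e₂) = ρ • e₂ + k := by abel
    rw [h2] at h1
    have h3 := norm_smul_add_le he₂ hρ hkρ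
    have h4 : ‖ρ • e₂ + k‖ ≤ ρ + inner ℝ e₂ k + c ^ 2 * ρ / 2 := by linarith
    have h5 : (L + c ^ 2 * L) * ‖ρ • e₂ + k‖ ≤
        (L + c ^ 2 * L) * (ρ + inner ℝ e₂ k + c ^ 2 * ρ / 2) :=
      mul_le_mul_of_nonneg_left h4 (by positivity)
    have h6 := (abs_le.1 (hk3 e₂ he₂)).2
    have h7 : c ^ 2 * L * (ρ + inner ℝ e₂ k + c ^ 2 * ρ / 2) ≤ c ^ 2 * L * (5 / 2 * ρ) := by
      apply mul_le_mul_of_nonneg_left _ (by positivity)
      nlinarith
    nlinarith
  -- lower bound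
  have hlower : L * inner ℝ e₁ k - 3 * (L * c ^ 2 * ρ) ≤ u (x + k) - u x := by
    have h1 := hlip _ hx1 _ hxk
    have h2 : x + ρ • e₁ - (x + k) = ρ • e₁ + (-k) := by abel
    rw [h2] at h1
    have h3 := norm_smul_add_le (h := -k) he₁ hρ (by rwa [norm_neg])
    rw [norm_neg, inner_neg_right] at h3
    have h4 : ‖ρ • e₁ + (-k)‖ ≤ ρ - inner ℝ e₁ k + c ^ 2 * ρ / 2 := by linarith
    have h5 : (L + c ^ 2 * L) * ‖ρ • e₁ + (-k)‖ ≤
        (L + c ^ 2 * L) * (ρ - inner ℝ e₁ k + c ^ 2 * ρ / 2) :=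
      mul_le_mul_of_nonneg_left h4 (by positivity)
    have h6 := (abs_le.1 (hk3 e₁ he₁)).1
    have h7 : c ^ 2 * L * (ρ - inner ℝ e₁ k + c ^ 2 * ρ / 2) ≤ c ^ 2 * L * (5 / 2 * ρ) := by
      apply mul_le_mul_of_nonneg_left _ (by positivity)
      nlinarith
    nlinarith
  have hdiff : L * inner ℝ e₂ k - L * inner ℝ e₁ k ≤ 3 * (L * c ^ 2 * ρ) := by
    have h1 : inner ℝ e₂ k - inner ℝ e₁ k = inner ℝ (e₂ - e₁) k := by rw [inner_sub_left]
    have h2 := real_inner_le_norm (e₂ - e₁) k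
    have h3 : ‖e₂ - e₁‖ * ‖k‖ ≤ (3 * c) * (c * ρ) :=
      mul_le_mul hdir hk (norm_nonneg _) (by positivity)
    have h4 : L * (inner ℝ e₂ k - inner ℝ e₁ k) ≤ L * ((3 * c) * (c * ρ)) := by
      apply mul_le_mul_of_nonneg_left _ hL.le
      rw [h1]; linarith
    nlinarith
  have hpos : 0 < L * c ^ 2 * ρ := by positivity
  have hfin : 6 * c * L * (c * ρ) = 6 * (L * c ^ 2 * ρ) := by ring
  rw [hfin, abs_le]
  constructor <;> linarith

/-- An exterior ball pins down the direction of an almost affine function. -/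
lemma direction_close {e n : E d} (he : ‖e‖ = 1) (hn : ‖n‖ = 1) {t r a : ℝ} (ht : 0 < t)
    (hr : 0 < r) (ha : 0 ≤ a)
    (H : ∀ k : E d, ‖k‖ = t → inner ℝ n k ≤ - (t ^ 2 / (2 * r)) → inner ℝ e k ≤ a * t) :
    ‖e - n‖ ≤ max (t / r) (2 * a) := by
  by_contra hcon
  rw [not_le, max_lt_iff] at hcon
  obtain ⟨h1, h2⟩ := hcon
  set D := ‖e - n‖ with hD
  have hDpos : 0 < D := lt_of_le_of_lt (by positivity) h2
  have hD2 : D ^ 2 = 2 - 2 * inner ℝ e n := norm_sub_sq_of_unit he hn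
  have hee : inner ℝ e e = 1 := by rw [real_inner_self_eq_norm_sq, he]; norm_num
  have hnn : inner ℝ n n = 1 := by rw [real_inner_self_eq_norm_sq, hn]; norm_num
  have hne : inner ℝ n e = inner ℝ e n := real_inner_comm _ _
  have hk : ‖t • D⁻¹ • (e - n)‖ = t := by
    rw [norm_smul, norm_smul, norm_inv, Real.norm_of_nonneg ht.le, Real.norm_of_nonneg hDpos.le,
      ← hD]
    field_simp
  have h3 : inner ℝ n (t • D⁻¹ • (e - n)) = - (t * D / 2) := by
    rw [inner_smul_right, inner_smul_right, inner_sub_right, hnn, hne]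
    field_simp
    linarith
  have h4 : inner ℝ e (t • D⁻¹ • (e - n)) = t * D / 2 := by
    rw [inner_smul_right, inner_smul_right, inner_sub_right, hee]
    field_simp
    linarith
  have h5 := H _ hk (by
    rw [h3]
    apply neg_le_neg
    rw [div_lt_iff₀ hr] at h1
    rw [div_le_iff₀ (by positivity)]
    nlinarith)
  rw [h4] at h5
  nlinarith

/-- Membership in the exterior ball. -/
lemma mem_closedBall_of_inner {x z k n : E d} {r : ℝ} (hr : 0 < r) (hx : x = z + r • n)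
    (hn : ‖n‖ = 1) (hk : inner ℝ n k ≤ - (‖k‖ ^ 2 / (2 * r))) : x + k ∈ closedBall z r := by
  rw [mem_closedBall, dist_eq_norm]
  have h1 : x + k - z = r • n + k := by rw [hx]; abel
  rw [h1]
  apply le_of_sq_le_sq _ hr.le
  rw [norm_add_sq_real, norm_smul, hn, inner_smul_left, Real.norm_of_nonneg hr.le]
  have h2 : r * inner ℝ n k ≤ - (‖k‖ ^ 2 / 2) := by
    have := mul_le_mul_of_nonneg_left hk hr.le
    have h3 : r * -(‖k‖ ^ 2 / (2 * r)) = - (‖k‖ ^ 2 / 2) := by field_simp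
    linarith
  simp
  nlinarith

/-- Differentiability at a point where `u` is maximal over a closed ball having this point on
its boundary. -/
lemma Cones.hasFDerivAt_of_max [Nontrivial (E d)] {u : E d → ℝ} {Ω : Set (E d)}
    (h : Cones u Ω) {x z n : E d} {r : ℝ} (hr : 0 < r) (hx : x = z + r • n) (hn : ‖n‖ = 1)
    (hb : closedBall z r ⊆ Ω) (hmax : ∀ y ∈ closedBall z r, u y ≤ u x) :
    HasFDerivAt u (ip d (slope u Ω x • n)) x := by
  have hxΩ : x ∈ Ω := hb (by
    rw [mem_closedBall, dist_eq_norm, hx, add_sub_cancel_left, norm_smul, hn,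
      Real.norm_of_nonneg hr.le, mul_one])
  rw [hasFDerivAt_iff_isLittleO_nhds_zero, Asymptotics.isLittleO_iff]
  intro C hC
  set L := slope u Ω x with hLdef
  have hL0 : 0 ≤ L := slope_nonneg u Ω x
  rcases hL0.eq_or_lt with hL | hL
  · obtain ⟨r₀, hr₀, -, hlip⟩ := h.slope_spec hxΩ hC
    rw [← hLdef, ← hL, zero_add] at hlip
    filter_upwards [Metric.ball_mem_nhds (0 : E d) hr₀] with k hk
    rw [← hL, zero_smul, map_zero]
    simp only [zero_apply, sub_zero]
    have hk' : ‖k‖ < r₀ := by rwa [mem_ball_zero_iff] at hk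
    have hxk : x + k ∈ ball x r₀ := by
      rw [mem_ball, dist_eq_norm, add_sub_cancel_left]; exact hk'
    have h1 := hlip _ hxk _ (mem_ball_self hr₀)
    have h2 := hlip _ (mem_ball_self hr₀) _ hxk
    rw [norm_sub_rev] at h2
    rw [add_sub_cancel_left] at h1 h2
    rw [Real.norm_eq_abs, abs_le]
    constructor <;> linarith
  · set c := min 1 (C / (18 * L)) with hc
    have hc0 : 0 < c := by positivity
    have hc1 : c ≤ 1 := min_le_left _ _
    have hc2 : 18 * c * L ≤ C := by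
      have : c ≤ C / (18 * L) := min_le_right _ _
      rw [le_div_iff₀ (by positivity)] at this
      linarith
    obtain ⟨r₀, hr₀, hsub, hlip⟩ := h.slope_spec hxΩ (by positivity : 0 < c ^ 2 * L)
    have hδ : 0 < min (c * r₀) (c * r) := by positivity
    filter_upwards [Metric.ball_mem_nhds (0 : E d) hδ] with k hk
    rw [mem_ball_zero_iff] at hk
    rcases eq_or_ne k 0 with rfl | hk0
    · simp
    set t := ‖k‖ with ht
    have htpos : 0 < t := norm_pos_iff.2 hk0
    have ht1 : t < c * r₀ := lt_of_lt_of_le hk (min_le_left _ _)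
    have ht2 : t < c * r := lt_of_lt_of_le hk (min_le_right _ _)
    have hρr : t / c < r₀ := by rw [div_lt_iff₀ hc0]; linarith
    obtain ⟨e, he, hlin⟩ := h.scale_linear hc0 hc1 hL hsub hlip
      (by positivity : 0 < t / c) hρr
    have hct : c * (t / c) = t := by field_simp
    rw [hct] at hlin
    have hdir : ‖e - n‖ ≤ 12 * c := by
      have h1 := direction_close he hn htpos hr (by positivity : 0 ≤ 6 * c)
        (fun k' hk' hn' => by
          have h2 := hmax _ (mem_closedBall_of_inner hr hx hn (by rw [hk']; exact hn'))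
          have h3 := (abs_le.1 (hlin k' hk'.le)).1
          have h4 : L * inner ℝ e k' ≤ L * (6 * c * t) := by
            have : 6 * c * slope u Ω x * t = L * (6 * c * t) := by rw [← hLdef]; ring
            linarith
          exact le_of_mul_le_mul_left h4 hL)
      refine h1.trans (max_le ?_ (by linarith))
      rw [div_le_iff₀ hr]
      nlinarith
    have h1 := hlin k le_rfl
    have h2 : |L * inner ℝ e k - L * inner ℝ n k| ≤ 12 * c * L * t := by
      rw [← mul_sub, ← inner_sub_left, abs_mul, abs_of_pos hL]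
      have h3 := abs_real_inner_le_norm (e - n) k
      have h4 : ‖e - n‖ * ‖k‖ ≤ 12 * c * t := mul_le_mul_of_nonneg_right hdir (norm_nonneg _)
      calc L * |inner ℝ (e - n) k| ≤ L * (12 * c * t) :=
            mul_le_mul_of_nonneg_left (h3.trans h4) hL.le
        _ = 12 * c * L * t := by ring
    have h5 : ip d (L • n) k = L * inner ℝ n k := by
      rw [ip_apply, inner_smul_left]; simp
    rw [h5, Real.norm_eq_abs]
    have h6 : u (x + k) - u x - L * inner ℝ n k =
        (u (x + k) - u x - L * inner ℝ e k) + (L * inner ℝ e k - L * inner ℝ n k) := by ring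
    rw [h6]
    refine (abs_add_le _ _).trans ?_
    have h7 : 18 * c * L * t ≤ C * t := mul_le_mul_of_nonneg_right hc2 htpos.le
    rw [← hLdef] at h1
    nlinarith

/-- Stability of the gradient along maximum points of closed balls of radius `r`, near a point of
differentiability. -/
lemma Cones.gradient_close [Nontrivial (E d)] {u : E d → ℝ} {Ω : Set (E d)}
    (h : Cones u Ω) {x₀ p₀ : E d} (hx₀ : x₀ ∈ Ω) (hd : HasFDerivAt u (ip d p₀) x₀)
    (hp₀ : ‖p₀‖ = slope u Ω x₀) {r : ℝ} (hr : 0 < r) {η : ℝ} (hη : 0 < η) :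
    ∃ δ > 0, ∀ x ∈ ball x₀ δ, ∀ z n : E d, x = z + r • n → ‖n‖ = 1 → closedBall z r ⊆ Ω →
      (∀ y ∈ closedBall z r, u y ≤ u x) → ‖slope u Ω x • n - p₀‖ ≤ η := by
  set L := slope u Ω x₀ with hLdef
  have hL0 : 0 ≤ L := slope_nonneg u Ω x₀
  rcases hL0.eq_or_lt with hL | hL
  · obtain ⟨r₀, hr₀, hsub, hlip⟩ := h.slope_spec hx₀ hη
    refine ⟨r₀, hr₀, fun x hx z n _ hn _ _ => ?_⟩
    have h1 := slope_le_of_lip hsub hlip hx
    have h2 : p₀ = 0 := by rw [← norm_eq_zero, hp₀, ← hL]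
    rw [h2, sub_zero, norm_smul, hn, mul_one, Real.norm_of_nonneg (slope_nonneg u Ω x)]
    rw [← hLdef, ← hL] at h1
    linarith
  · set c := min 1 (η / (14 * L)) with hc
    have hc0 : 0 < c := by positivity
    have hc1 : c ≤ 1 := min_le_left _ _
    have hc2 : 14 * c * L ≤ η := by
      have : c ≤ η / (14 * L) := min_le_right _ _
      rw [le_div_iff₀ (by positivity)] at this
      linarith
    have hC : 0 < c * L / 2 := by positivity
    rw [hasFDerivAt_iff_isLittleO_nhds_zero, Asymptotics.isLittleO_iff] at hd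
    obtain ⟨t₀, ht₀, hder⟩ := Metric.eventually_nhds_iff_ball.1 (hd hC)
    obtain ⟨r₀, hr₀, hsub, hlip⟩ := h.slope_spec hx₀ (by positivity : 0 < c * L)
    set t := min (t₀ / 4) (c * r) with ht
    have htpos : 0 < t := by positivity
    have ht1 : t ≤ t₀ / 4 := min_le_left _ _
    have ht2 : t ≤ c * r := min_le_right _ _
    refine ⟨min t r₀, by positivity, fun x hx z n hxz hn hb hmax => ?_⟩
    have hxt : ‖x - x₀‖ ≤ t := by
      rw [← dist_eq_norm]
      exact (lt_of_lt_of_le hx (min_le_left _ _)).le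
    have hxr : x ∈ ball x₀ r₀ := lt_of_lt_of_le (mem_ball.1 hx) (min_le_right _ _)
    have hup := slope_le_of_lip hsub hlip hxr
    have hder' : ∀ k : E d, ‖k‖ ≤ 2 * t → |u (x₀ + k) - u x₀ - inner ℝ p₀ k| ≤ c * L * t := by
      intro k hk
      have h1 := hder k (by rw [mem_ball_zero_iff]; linarith)
      rw [Real.norm_eq_abs, ip_apply] at h1
      refine h1.trans ?_
      have := mul_le_mul_of_nonneg_left hk hC.le
      linarith
    have hloc : ∀ k : E d, ‖k‖ ≤ t → |u (x + k) - u x - inner ℝ p₀ k| ≤ 2 * (c * L * t) := by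
      intro k hk
      have h1 := hder' (x - x₀ + k) ((norm_add_le _ _).trans (by linarith))
      have h2 := hder' (x - x₀) (by linarith)
      have h3 : x₀ + (x - x₀ + k) = x + k := by abel
      have h4 : x₀ + (x - x₀) = x := by abel
      rw [h3, inner_add_right] at h1
      rw [h4] at h2
      have h5 : u (x + k) - u x - inner ℝ p₀ k =
          (u (x + k) - u x₀ - (inner ℝ p₀ (x - x₀) + inner ℝ p₀ k)) -
          (u x - u x₀ - inner ℝ p₀ (x - x₀)) := by ring
      rw [h5]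
      exact (abs_sub _ _).trans (by linarith)
    set n₀ := L⁻¹ • p₀ with hn₀def
    have hp₀n : p₀ = L • n₀ := by rw [hn₀def, smul_inv_smul₀ hL.ne']
    have hn₀ : ‖n₀‖ = 1 := by
      rw [hn₀def, norm_smul, hp₀, norm_inv, Real.norm_of_nonneg hL.le]
      field_simp
    have hinner : ∀ k : E d, inner ℝ p₀ k = L * inner ℝ n₀ k := by
      intro k
      rw [hp₀n, inner_smul_left]; simp
    have hdir : ‖n₀ - n‖ ≤ 4 * c := by
      have h1 := direction_close hn₀ hn htpos hr (by positivity : 0 ≤ 2 * c)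
        (fun k hk hnk => by
          have h2 := hmax _ (mem_closedBall_of_inner hr hxz hn (by rw [hk]; exact hnk))
          have h3 := (abs_le.1 (hloc k hk.le)).1
          rw [hinner] at h3
          have h4 : L * inner ℝ n₀ k ≤ L * (2 * c * t) := by linarith
          exact le_of_mul_le_mul_left h4 hL)
      refine h1.trans (max_le ?_ (by linarith))
      rw [div_le_iff₀ hr]
      nlinarith
    have hlow : L - 10 * c * L ≤ slope u Ω x := by
      -- the inner ball of radius `t` touching at `x`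
      have htr : t ≤ r := by nlinarith
      have hzt : closedBall (x - t • n) t ⊆ closedBall z r := by
        apply closedBall_subset_closedBall'
        rw [dist_eq_norm, hxz]
        have : z + r • n - t • n - z = (r - t) • n := by rw [sub_smul]; abel
        rw [this, norm_smul, hn, Real.norm_of_nonneg (by linarith)]
        linarith
      have h1 := h.slope_ge_of_max (x := x) (z := x - t • n) htpos
        (by rw [dist_eq_norm, sub_sub_cancel, norm_smul, hn, Real.norm_of_nonneg htpos.le, mul_one])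
        (hzt.trans hb) (fun y hy => hmax y (hzt hy))
      have h2 := (abs_le.1 (hloc (-(t • n)) (by
        rw [norm_neg, norm_smul, hn, Real.norm_of_nonneg htpos.le, mul_one]))).2
      rw [← sub_eq_add_neg, inner_neg_right, inner_smul_right, hinner] at h2
      have h3 : ‖n₀ - n‖ ^ 2 = 2 - 2 * inner ℝ n₀ n := norm_sub_sq_of_unit hn₀ hn
      have h4 : ‖n₀ - n‖ ^ 2 ≤ (4 * c) ^ 2 := pow_le_pow_left₀ (norm_nonneg _) hdir 2
      have h5 : 1 - 8 * c ≤ inner ℝ n₀ n := by nlinarith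
      have h6 : L * t * (1 - 8 * c) ≤ L * t * inner ℝ n₀ n :=
        mul_le_mul_of_nonneg_left h5 (by positivity)
      have h7 : (L - 10 * c * L) * t ≤ slope u Ω x * t := by nlinarith
      exact le_of_mul_le_mul_right h7 htpos
    have h1 : slope u Ω x • n - p₀ = (slope u Ω x - L) • n - L • (n₀ - n) := by
      rw [hp₀n, smul_sub, sub_smul]; abel
    rw [h1]
    refine (norm_sub_le _ _).trans ?_
    rw [norm_smul, norm_smul, hn, mul_one, Real.norm_of_nonneg hL.le]
    have h2 : ‖slope u Ω x - L‖ ≤ 10 * c * L := by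
      rw [Real.norm_eq_abs, abs_le]
      have : 0 < c * L := by positivity
      constructor <;> linarith
    have h3 : L * ‖n₀ - n‖ ≤ L * (4 * c) := mul_le_mul_of_nonneg_left hdir hL.le
    linarith

end Vale.Agent.P080
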