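import Vale.Agent.P080.Diff

namespace Vale.Agent.P080

open Set Metric Filter Topology

variable {d : ℕ}

lemma unit_of_dist {x z : E d} {r : ℝ} (hr : 0 < r) (hxz : dist x z = r) :
    x = z + r • (r⁻¹ • (x - z)) ∧ ‖r⁻¹ • (x - z)‖ = 1 := by
  constructor
  · rw [smul_inv_smul₀ hr.ne']; abel
  · rw [norm_smul, ← dist_eq_norm, hxz, norm_inv, Real.norm_of_nonneg hr.le]
    field_simp

lemma ip_sub_norm_le (p q : E d) : ‖ip d p - ip d q‖ ≤ ‖p - q‖ := by
  have h1 : ip d p - ip d q = ip d (p - q) := by rw [map_sub]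
  rw [h1]
  have : ‖ip d (p - q)‖ = ‖p - q‖ := innerSL_apply_norm (𝕜 := ℝ) (p - q)
  exact this.le

/-- At each extremum point of a closed ball, `u` is differentiable with gradient of norm
`slope u Ω x`, and nearby extremum points of the same radius have close gradients. -/
lemma Cones.hasFDerivAt_of_mem [Nontrivial (E d)] {u : E d → ℝ} {Ω : Set (E d)}
    (h : Cones u Ω) {x : E d} {r : ℝ} (hr : 0 < r) (hx : x ∈ ballExtremumPoints u Ω r) :
    x ∈ Ω ∧ ∃ p : E d, HasFDerivAt u (ip d p) x ∧ ‖p‖ = slope u Ω x := by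
  obtain ⟨z, hxz, hb, hext⟩ := hx
  obtain ⟨hx, hn⟩ := unit_of_dist hr hxz
  have hxΩ : x ∈ Ω := hb (by rw [mem_closedBall, hxz])
  refine ⟨hxΩ, ?_⟩
  rcases hext with hmax | hmin
  · refine ⟨_, h.hasFDerivAt_of_max hr hx hn hb hmax, ?_⟩
    rw [norm_smul, hn, mul_one, Real.norm_of_nonneg (slope_nonneg u Ω x)]
  · have h1 := h.neg.hasFDerivAt_of_max hr hx hn hb (fun y hy => by
      have := hmin y hy; linarith)
    refine ⟨-(slope u Ω x • r⁻¹ • (x - z)), ?_, ?_⟩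
    · have h2 := h1.neg
      rw [slope_neg, ← map_neg] at h2
      refine h2.congr_of_eventuallyEq (Eventually.of_forall fun y => ?_)
      simp
    · rw [norm_neg, norm_smul, hn, mul_one, Real.norm_of_nonneg (slope_nonneg u Ω x)]

lemma Cones.fderiv_close [Nontrivial (E d)] {u : E d → ℝ} {Ω : Set (E d)}
    (h : Cones u Ω) {x₀ p₀ : E d} (hx₀ : x₀ ∈ Ω) (hd : HasFDerivAt u (ip d p₀) x₀)
    (hp₀ : ‖p₀‖ = slope u Ω x₀) {r : ℝ} (hr : 0 < r) {η : ℝ} (hη : 0 < η) :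
    ∃ δ > 0, ∀ x ∈ ball x₀ δ, x ∈ ballExtremumPoints u Ω r →
      ‖fderiv ℝ u x - fderiv ℝ u x₀‖ ≤ η := by
  obtain ⟨δ₁, hδ₁, H₁⟩ := h.gradient_close hx₀ hd hp₀ hr hη
  have hd' : HasFDerivAt (fun y => - u y) (ip d (-p₀)) x₀ := by
    rw [map_neg]; exact hd.neg
  obtain ⟨δ₂, hδ₂, H₂⟩ := h.neg.gradient_close hx₀ hd' (by rw [norm_neg, slope_neg, hp₀]) hr hη
  refine ⟨min δ₁ δ₂, by positivity, fun x hx hxG => ?_⟩
  have hx1 : x ∈ ball x₀ δ₁ := lt_of_lt_of_le (mem_ball.1 hx) (min_le_left _ _)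
  have hx2 : x ∈ ball x₀ δ₂ := lt_of_lt_of_le (mem_ball.1 hx) (min_le_right _ _)
  obtain ⟨z, hxz, hb, hext⟩ := hxG
  obtain ⟨hx, hn⟩ := unit_of_dist hr hxz
  rcases hext with hmax | hmin
  · rw [(h.hasFDerivAt_of_max hr hx hn hb hmax).fderiv, hd.fderiv]
    exact (ip_sub_norm_le _ _).trans (H₁ x hx1 z _ hx hn hb hmax)
  · have hmax : ∀ y ∈ closedBall z r, (fun y => - u y) y ≤ (fun y => - u y) x := fun y hy => by
      have := hmin y hy; simp only []; linarith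
    have h1 := h.neg.hasFDerivAt_of_max hr hx hn hb hmax
    have h3 : HasFDerivAt u (- (ip d (slope (fun y => - u y) Ω x • r⁻¹ • (x - z)))) x := by
      refine h1.neg.congr_of_eventuallyEq (Eventually.of_forall fun y => ?_)
      simp
    rw [h3.fderiv, hd.fderiv]
    have h4 : -(ip d) (slope (fun y => -u y) Ω x • r⁻¹ • (x - z)) - (ip d) p₀ =
        (ip d) (-p₀) - (ip d) (slope (fun y => -u y) Ω x • r⁻¹ • (x - z)) := by
      rw [map_neg]; abel
    rw [h4]
    refine (ip_sub_norm_le _ _).trans ?_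
    rw [norm_sub_rev]
    exact H₂ x hx2 z _ hx hn hb hmax

/-- Maximum principle. -/
lemma Cones.exists_max_closedBall [Nontrivial (E d)] {u : E d → ℝ} {Ω : Set (E d)}
    (h : Cones u Ω) {z : E d} {r : ℝ} (hr : 0 < r) (hb : closedBall z r ⊆ Ω) :
    ∃ x : E d, dist x z = r ∧ ∀ y ∈ closedBall z r, u y ≤ u x := by
  obtain ⟨e, he, hmax⟩ := h.exists_max_sphere hr hb
  refine ⟨z + r • e, ?_, fun y hy => ?_⟩
  · rw [dist_eq_norm, add_sub_cancel_left, norm_smul, he, Real.norm_of_nonneg hr.le, mul_one]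
  · have h2 : (u (z + r • e) - u z) / r * r = u (z + r • e) - u z := by field_simp
    have hs : ∀ y ∈ sphere z r, u y ≤ u z + (u (z + r • e) - u z) / r * r := fun y hy => by
      have h1 := hmax y hy
      linarith
    have h3 := h.slope_le_of_above hr hb hs
    have h4 := slope_nonneg u Ω z
    have h5 := h.above z r _ hr hb hs y hy
    have h6 : ‖y - z‖ ≤ r := by rw [← dist_eq_norm]; exact hy
    have h7 : (u (z + r • e) - u z) / r * ‖y - z‖ ≤ (u (z + r • e) - u z) / r * r :=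
      mul_le_mul_of_nonneg_left h6 (h4.trans h3)
    linarith

/-- Supporting half-space for a quasiconcave function. -/
lemma exists_support [Nontrivial (E d)] {u : E d → ℝ} {B : Set (E d)} (hB : IsOpen B)
    (hcont : ContinuousOn u B) (hq : QuasiconcaveOn ℝ B u) (x : E d) :
    ∃ n : E d, ‖n‖ = 1 ∧ ∀ y ∈ B, inner ℝ n (y - x) ≤ 0 → u y ≤ u x := by
  have hconv : Convex ℝ {y ∈ B | u x < u y} := hq.convex_gt (u x)
  have hopen : IsOpen {y ∈ B | u x < u y} := hcont.isOpen_inter_preimage hB isOpen_Ioi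
  have hx : x ∉ {y ∈ B | u x < u y} := fun hh => lt_irrefl _ hh.2
  obtain ⟨f, hf⟩ := geometric_hahn_banach_point_open hconv hopen hx
  rcases eq_or_ne f 0 with rfl | hf0
  · obtain ⟨v, hv⟩ := exists_norm_eq (E d) zero_le_one
    refine ⟨v, hv, fun y hy _ => ?_⟩
    by_contra hcon
    have := hf y ⟨hy, not_le.1 hcon⟩
    simp at this
  · set v := (InnerProductSpace.toDual ℝ (E d)).symm f with hv
    have hfv : ∀ w, f w = inner ℝ v w := fun w => by
      rw [hv, InnerProductSpace.toDual_symm_apply]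
    have hv0 : v ≠ 0 := by
      rw [hv]
      simpa using hf0
    have hvn : 0 < ‖v‖ := norm_pos_iff.2 hv0
    refine ⟨‖v‖⁻¹ • v, ?_, fun y hy hle => ?_⟩
    · rw [norm_smul, norm_inv, norm_norm]
      field_simp
    · by_contra hcon
      have h1 := hf y ⟨hy, not_le.1 hcon⟩
      rw [inner_smul_left] at hle
      simp only [map_inv₀, conj_trivial] at hle
      have h2 : inner ℝ v (y - x) ≤ 0 := by
        by_contra h3
        rw [not_le] at h3
        have : 0 < ‖v‖⁻¹ * inner ℝ v (y - x) := by positivity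
        linarith
      rw [inner_sub_right, ← hfv, ← hfv] at h2
      linarith

/-- Locally quasiconcave functions have uniform exterior balls. -/
lemma mem_ballExtremumPoints_of_quasiconcaveOn [Nontrivial (E d)] {u : E d → ℝ}
    {Ω : Set (E d)} {x₀ : E d} {ρ : ℝ} (hρ : 0 < ρ) (hsub : ball x₀ ρ ⊆ Ω)
    (hcont : ContinuousOn u Ω) (hq : QuasiconcaveOn ℝ (ball x₀ ρ) u) {x : E d}
    (hx : x ∈ ball x₀ (ρ / 2)) :
    ∃ z : E d, dist x z = ρ / 4 ∧ closedBall z (ρ / 4) ⊆ Ω ∧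
      ∀ y ∈ closedBall z (ρ / 4), u y ≤ u x := by
  obtain ⟨n, hn, hsup⟩ := exists_support isOpen_ball (hcont.mono hsub) hq x
  have hz : closedBall (x - (ρ / 4) • n) (ρ / 4) ⊆ ball x₀ ρ := by
    intro y hy
    rw [mem_ball] at hx ⊢
    rw [mem_closedBall] at hy
    have h1 : dist (x - (ρ / 4) • n) x = ρ / 4 := by
      rw [dist_eq_norm, sub_sub_cancel_left, norm_neg, norm_smul, hn,
        Real.norm_of_nonneg (by positivity), mul_one]
    have h2 := dist_triangle y (x - (ρ / 4) • n) x₀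
    have h3 := dist_triangle (x - (ρ / 4) • n) x x₀
    linarith
  refine ⟨x - (ρ / 4) • n, ?_, hz.trans hsub, fun y hy => ?_⟩
  · rw [dist_eq_norm, sub_sub_cancel, norm_smul, hn,
      Real.norm_of_nonneg (by positivity), mul_one]
  · apply hsup y (hz hy)
    have h1 : y - x = (y - (x - (ρ / 4) • n)) - (ρ / 4) • n := by abel
    rw [h1, inner_sub_right, inner_smul_right, real_inner_self_eq_norm_sq, hn]
    have h2 := real_inner_le_norm n (y - (x - (ρ / 4) • n))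
    rw [hn, one_mul, ← dist_eq_norm] at h2
    rw [mem_closedBall] at hy
    linarith

lemma contDiffOn_one_of_hasFDerivAt {u : E d → ℝ} {Ω : Set (E d)} (hΩ : IsOpen Ω)
    (hd : ∀ x ∈ Ω, DifferentiableAt ℝ u x)
    (hc : ∀ x₀ ∈ Ω, ContinuousAt (fderiv ℝ u) x₀) : ContDiffOn ℝ 1 u Ω := by
  have : (1 : WithTop ℕ∞) = 0 + 1 := by norm_num
  rw [this, contDiffOn_succ_iff_fderiv_of_isOpen hΩ]
  refine ⟨fun x hx => (hd x hx).differentiableWithinAt, by simp, ?_⟩
  rw [contDiffOn_zero]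
  exact fun x hx => (hc x hx).continuousWithinAt

theorem main_relative [Nontrivial (E d)] {Ω : Set (E d)} (hΩ : IsOpen Ω) {u : E d → ℝ}
    (hu : IsInfHarmonicOn u Ω) {r : ℝ} (hr : 0 < r) :
    (∀ x ∈ ballExtremumPoints u Ω r, DifferentiableAt ℝ u x) ∧
      ContinuousOn (fderiv ℝ u) (ballExtremumPoints u Ω r) := by
  have h := hu.cones hΩ
  refine ⟨fun x hx => ?_, fun x₀ hx₀ => ?_⟩
  · obtain ⟨-, p, hp, -⟩ := h.hasFDerivAt_of_mem hr hx
    exact hp.differentiableAt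
  · obtain ⟨hxΩ, p, hp, hpn⟩ := h.hasFDerivAt_of_mem hr hx₀
    rw [Metric.continuousWithinAt_iff]
    intro ε hε
    obtain ⟨δ, hδ, H⟩ := h.fderiv_close hxΩ hp hpn hr (by positivity : 0 < ε / 2)
    refine ⟨δ, hδ, fun {x} hxG hx => ?_⟩
    rw [dist_eq_norm]
    exact lt_of_le_of_lt (H x hx hxG) (by linarith)

theorem main_dense [Nontrivial (E d)] {Ω : Set (E d)} (hΩ : IsOpen Ω) {u : E d → ℝ}
    (hu : IsInfHarmonicOn u Ω) :
    Ω ⊆ closure (⋃ r > 0, ballExtremumPoints u Ω r) := by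
  have h := hu.cones hΩ
  intro z hz
  rw [Metric.mem_closure_iff]
  intro ε hε
  obtain ⟨R, hR, hsub⟩ := Metric.nhds_basis_closedBall.mem_iff.1 (hΩ.mem_nhds hz)
  have hr : 0 < min (ε / 2) R := by positivity
  have hsub' : closedBall z (min (ε / 2) R) ⊆ Ω :=
    (closedBall_subset_closedBall (min_le_right _ _)).trans hsub
  obtain ⟨x, hxz, hmax⟩ := h.exists_max_closedBall hr hsub'
  refine ⟨x, ?_, ?_⟩
  · simp only [mem_iUnion]
    exact ⟨_, hr, z, hxz, hsub', Or.inl hmax⟩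
  · rw [dist_comm, hxz]
    have := min_le_left (ε / 2) R
    linarith

theorem main_c1 [Nontrivial (E d)] {Ω : Set (E d)} (hΩ : IsOpen Ω) {u : E d → ℝ}
    (hu : IsInfHarmonicOn u Ω)
    (H : ∀ x₀ ∈ Ω, ∃ r > 0, ∀ᶠ x in 𝓝 x₀, x ∈ ballExtremumPoints u Ω r) :
    ContDiffOn ℝ 1 u Ω := by
  apply contDiffOn_one_of_hasFDerivAt hΩ
  · intro x hx
    obtain ⟨r, hr, hev⟩ := H x hx
    exact (main_relative hΩ hu hr).1 x hev.self_of_nhds
  · intro x hx
    obtain ⟨r, hr, hev⟩ := H x hx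
    have h1 := (main_relative hΩ hu hr).2 x hev.self_of_nhds
    exact h1.continuousAt hev

theorem main_quasi [Nontrivial (E d)] {Ω : Set (E d)} (hΩ : IsOpen Ω) {u : E d → ℝ}
    (hu : IsInfHarmonicOn u Ω)
    (H : ∀ x₀ ∈ Ω, ∃ ρ > 0, ball x₀ ρ ⊆ Ω ∧
      (QuasiconcaveOn ℝ (ball x₀ ρ) u ∨ QuasiconvexOn ℝ (ball x₀ ρ) u)) :
    ContDiffOn ℝ 1 u Ω := by
  apply main_c1 hΩ hu
  intro x₀ hx₀
  obtain ⟨ρ, hρ, hsub, hq⟩ := H x₀ hx₀
  refine ⟨ρ / 4, by positivity, ?_⟩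
  filter_upwards [isOpen_ball.mem_nhds (mem_ball_self (x := x₀) (by positivity : 0 < ρ / 2))]
    with x hx
  rcases hq with hq | hq
  · obtain ⟨z, h1, h2, h3⟩ := mem_ballExtremumPoints_of_quasiconcaveOn hρ hsub hu.cont hq hx
    exact ⟨z, h1, h2, Or.inl h3⟩
  · have hq' : QuasiconcaveOn ℝ (ball x₀ ρ) (fun y => - u y) := by
      intro t
      have := hq (-t)
      have h4 : {y ∈ ball x₀ ρ | t ≤ - u y} = {y ∈ ball x₀ ρ | u y ≤ -t} := by
        ext y
        simp only [Set.mem_ofPred_eq]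
        constructor <;> rintro ⟨h5, h6⟩ <;> exact ⟨h5, by linarith⟩
      rw [h4]
      exact this
    obtain ⟨z, h1, h2, h3⟩ :=
      mem_ballExtremumPoints_of_quasiconcaveOn hρ hsub hu.cont.neg hq' hx
    refine ⟨z, h1, h2, Or.inr fun y hy => ?_⟩
    have h4 := h3 y hy
    simp only [Pi.neg_apply] at h4
    linarith

end Vale.Agent.P080
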