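import Vale.Agent.P080.Cone

namespace Vale.Agent.P080

open Set Metric Filter Topology

variable {d : ℕ}

/-- Two-sided comparison with cones on balls. -/
structure Cones (u : E d → ℝ) (Ω : Set (E d)) : Prop where
  isOpen : IsOpen Ω
  cont : ContinuousOn u Ω
  above : ∀ (z : E d) (R b : ℝ), 0 < R → closedBall z R ⊆ Ω →
    (∀ y ∈ sphere z R, u y ≤ u z + b * R) → ∀ y ∈ closedBall z R, u y ≤ u z + b * ‖y - z‖
  below : ∀ (z : E d) (R b : ℝ), 0 < R → closedBall z R ⊆ Ω →
    (∀ y ∈ sphere z R, u z - b * R ≤ u y) → ∀ y ∈ closedBall z R, u z - b * ‖y - z‖ ≤ u y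

lemma IsInfHarmonicOn.cones {u : E d → ℝ} {Ω : Set (E d)} (h : IsInfHarmonicOn u Ω)
    (hΩ : IsOpen Ω) : Cones u Ω where
  isOpen := hΩ
  cont := h.cont
  above := fun _ _ _ hR hb hs => h.cone_above hR hb hs
  below := fun _ _ _ hR hb hs => h.cone_below hR hb hs

lemma Cones.neg {u : E d → ℝ} {Ω : Set (E d)} (h : Cones u Ω) : Cones (fun y => - u y) Ω where
  isOpen := h.isOpen
  cont := h.cont.neg
  above := fun z R b hR hb hs y hy => by
    have := h.below z R b hR hb (fun y hy => by have := hs y hy; linarith) y hy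
    linarith
  below := fun z R b hR hb hs y hy => by
    have := h.above z R b hR hb (fun y hy => by have := hs y hy; linarith) y hy
    linarith

/-- A cone bound from above on one sphere bounds the local Lipschitz constant. -/
lemma Cones.lip_of_above {u : E d → ℝ} {Ω : Set (E d)} (h : Cones u Ω) {x : E d} {R b : ℝ}
    (hR : 0 < R) (hb : closedBall x R ⊆ Ω) (hs : ∀ y ∈ sphere x R, u y ≤ u x + b * R)
    {ε : ℝ} (hε : 0 < ε) :
    ∃ r > 0, ball x r ⊆ Ω ∧ ∀ y ∈ ball x r, ∀ y' ∈ ball x r,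
      u y - u y' ≤ (b + ε) * ‖y - y'‖ := by
  have hx : x ∈ Ω := hb (mem_closedBall_self hR.le)
  have hcx : ContinuousAt u x := h.cont.continuousAt (h.isOpen.mem_nhds hx)
  obtain ⟨δ₁, hδ₁, hcont⟩ := Metric.continuousAt_iff.1 hcx (ε * R / 4) (by positivity)
  set δ := min δ₁ (min (R / 4) (ε * R / (4 * (|b| + 1)))) with hδdef
  have hδ : 0 < δ := by positivity
  have hδ1 : δ ≤ δ₁ := min_le_left _ _
  have hδ2 : δ ≤ R / 4 := (min_le_right _ _).trans (min_le_left _ _)
  have hδ3 : δ ≤ ε * R / (4 * (|b| + 1)) := (min_le_right _ _).trans (min_le_right _ _)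
  have hδ4 : |b| * δ ≤ ε * R / 4 := by
    have h1 : (|b| + 1) * δ ≤ ε * R / 4 := by
      have := mul_le_mul_of_nonneg_left hδ3 (by positivity : 0 ≤ |b| + 1)
      have h2 : (|b| + 1) * (ε * R / (4 * (|b| + 1))) = ε * R / 4 := by field_simp
      linarith
    linarith
  have hxa := h.above x R b hR hb hs
  have key : ∀ y' ∈ ball x δ, ∀ y ∈ closedBall y' (R - δ), u y ≤ u y' + (b + ε) * ‖y - y'‖ := by
    intro y' hy'
    have hy'd : dist y' x < δ := hy'
    have hsub : closedBall y' (R - δ) ⊆ closedBall x R := by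
      apply closedBall_subset_closedBall'
      linarith
    apply h.above y' (R - δ) (b + ε) (by linarith) (hsub.trans hb)
    intro y hy
    have h1 := hxa y (hsub (sphere_subset_closedBall hy))
    have h2 : |u y' - u x| < ε * R / 4 := by
      have := hcont (lt_of_lt_of_le hy'd hδ1)
      rwa [Real.dist_eq] at this
    have h3 : ‖y - y'‖ = R - δ := by rw [← dist_eq_norm]; exact hy
    have h4 : b * ‖y - x‖ ≤ b * (R - δ) + |b| * δ := by
      have h5 : |‖y - x‖ - ‖y - y'‖| ≤ ‖y' - x‖ := by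
        have := abs_norm_sub_norm_le (y - x) (y - y')
        have h6 : y - x - (y - y') = y' - x := by abel
        rwa [h6] at this
      have h7 : ‖y' - x‖ ≤ δ := by rw [← dist_eq_norm]; exact hy'd.le
      have h8 : b * (‖y - x‖ - ‖y - y'‖) ≤ |b| * δ := by
        calc b * (‖y - x‖ - ‖y - y'‖) ≤ |b * (‖y - x‖ - ‖y - y'‖)| := le_abs_self _
          _ = |b| * |‖y - x‖ - ‖y - y'‖| := abs_mul _ _
          _ ≤ |b| * δ := mul_le_mul_of_nonneg_left (h5.trans h7) (abs_nonneg _)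
      rw [h3] at h8
      linarith
    have h9 := (abs_lt.1 h2).1
    have h10 : ε * R / 4 + ε * R / 4 ≤ ε * (R - δ) := by
      have : ε * δ ≤ ε * (R / 4) := mul_le_mul_of_nonneg_left hδ2 hε.le
      have h11 : 0 < ε * R := by positivity
      linarith
    linarith
  refine ⟨δ, hδ, ?_, ?_⟩
  · exact (ball_subset_closedBall.trans (closedBall_subset_closedBall (by linarith))).trans hb
  · intro y hy y' hy'
    have h1 : y ∈ closedBall y' (R - δ) := by
      rw [mem_closedBall]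
      have h2 : dist y x < δ := hy
      have h3 : dist y' x < δ := hy'
      have := dist_triangle_right y y' x
      linarith
    have := key y' hy' y h1
    linarith

/-- The set of local Lipschitz constants of `u` at `x`. -/
def lipSet (u : E d → ℝ) (Ω : Set (E d)) (x : E d) : Set ℝ :=
  {b | ∃ r > 0, ball x r ⊆ Ω ∧ ∀ y ∈ ball x r, ∀ y' ∈ ball x r, u y - u y' ≤ b * ‖y - y'‖}

/-- The pointwise Lipschitz constant of `u` at `x`. -/
noncomputable def slope (u : E d → ℝ) (Ω : Set (E d)) (x : E d) : ℝ := sInf (lipSet u Ω x)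

lemma lipSet_neg (u : E d → ℝ) (Ω : Set (E d)) (x : E d) :
    lipSet (fun y => - u y) Ω x = lipSet u Ω x := by
  have key : ∀ v : E d → ℝ, lipSet v Ω x ⊆ lipSet (fun y => - v y) Ω x := by
    rintro v b ⟨r, hr, hsub, hb⟩
    refine ⟨r, hr, hsub, fun y hy y' hy' => ?_⟩
    have := hb y' hy' y hy
    rw [norm_sub_rev] at this
    linarith
  apply Subset.antisymm
  · have := key (fun y => - u y)
    simpa using this
  · exact key u

lemma slope_neg (u : E d → ℝ) (Ω : Set (E d)) (x : E d) :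
    slope (fun y => - u y) Ω x = slope u Ω x := by
  unfold slope
  rw [lipSet_neg]

section nontriv
variable [Nontrivial (E d)]

lemma nonneg_of_mem_lipSet {u : E d → ℝ} {Ω : Set (E d)} {x : E d} {b : ℝ}
    (hb : b ∈ lipSet u Ω x) : 0 ≤ b := by
  obtain ⟨r, hr, -, hb⟩ := hb
  obtain ⟨v, hv⟩ := exists_norm_eq (E d) (by positivity : 0 ≤ r / 2)
  have h1 : x + v ∈ ball x r := by
    rw [mem_ball, dist_eq_norm, add_sub_cancel_left, hv]; linarith
  have h2 := hb _ h1 _ (mem_ball_self hr)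
  have h3 := hb _ (mem_ball_self hr) _ h1
  rw [norm_sub_rev] at h3
  rw [add_sub_cancel_left, hv] at h2 h3
  by_contra hcon
  rw [not_le] at hcon
  have : b * (r / 2) < 0 := mul_neg_of_neg_of_pos hcon (by positivity)
  linarith

lemma bddBelow_lipSet (u : E d → ℝ) (Ω : Set (E d)) (x : E d) : BddBelow (lipSet u Ω x) :=
  ⟨0, fun _ hb => nonneg_of_mem_lipSet hb⟩

lemma slope_nonneg (u : E d → ℝ) (Ω : Set (E d)) (x : E d) : 0 ≤ slope u Ω x :=
  Real.sInf_nonneg fun _ hb => nonneg_of_mem_lipSet hb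

lemma Cones.exists_max_sphere {u : E d → ℝ} {Ω : Set (E d)} (h : Cones u Ω) {x : E d} {ρ : ℝ}
    (hρ : 0 < ρ) (hb : closedBall x ρ ⊆ Ω) :
    ∃ e : E d, ‖e‖ = 1 ∧ ∀ y ∈ sphere x ρ, u y ≤ u (x + ρ • e) := by
  have hne : (sphere x ρ).Nonempty := NormedSpace.sphere_nonempty.2 hρ.le
  obtain ⟨y, hy, hmax⟩ := (isCompact_sphere x ρ).exists_isMaxOn hne
    (h.cont.mono (sphere_subset_closedBall.trans hb))
  refine ⟨ρ⁻¹ • (y - x), ?_, ?_⟩
  · rw [norm_smul, ← dist_eq_norm, mem_sphere.1 hy, norm_inv, Real.norm_of_nonneg hρ.le]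
    field_simp
  · intro w hw
    have : x + ρ • ρ⁻¹ • (y - x) = y := by
      rw [smul_inv_smul₀ hρ.ne']; abel
    rw [this]
    exact hmax hw

lemma Cones.slope_le_of_above {u : E d → ℝ} {Ω : Set (E d)} (h : Cones u Ω) {x : E d} {R b : ℝ}
    (hR : 0 < R) (hb : closedBall x R ⊆ Ω) (hs : ∀ y ∈ sphere x R, u y ≤ u x + b * R) :
    slope u Ω x ≤ b := by
  apply le_of_forall_pos_le_add
  intro ε hε
  obtain ⟨r, hr, hsub, hlip⟩ := h.lip_of_above hR hb hs hε
  exact csInf_le (bddBelow_lipSet u Ω x) ⟨r, hr, hsub, hlip⟩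

lemma Cones.exists_up {u : E d → ℝ} {Ω : Set (E d)} (h : Cones u Ω) {x : E d} {ρ : ℝ}
    (hρ : 0 < ρ) (hb : closedBall x ρ ⊆ Ω) :
    ∃ e : E d, ‖e‖ = 1 ∧ u x + slope u Ω x * ρ ≤ u (x + ρ • e) := by
  obtain ⟨e, he, hmax⟩ := h.exists_max_sphere hρ hb
  refine ⟨e, he, ?_⟩
  have := h.slope_le_of_above (b := (u (x + ρ • e) - u x) / ρ) hρ hb (fun y hy => by
    have h1 := hmax y hy
    have h2 : (u (x + ρ • e) - u x) / ρ * ρ = u (x + ρ • e) - u x := by field_simp
    linarith)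
  rw [le_div_iff₀ hρ] at this
  linarith

lemma Cones.exists_down {u : E d → ℝ} {Ω : Set (E d)} (h : Cones u Ω) {x : E d} {ρ : ℝ}
    (hρ : 0 < ρ) (hb : closedBall x ρ ⊆ Ω) :
    ∃ e : E d, ‖e‖ = 1 ∧ u (x - ρ • e) ≤ u x - slope u Ω x * ρ := by
  obtain ⟨e, he, hle⟩ := h.neg.exists_up hρ hb
  refine ⟨-e, by rwa [norm_neg], ?_⟩
  rw [slope_neg] at hle
  rw [smul_neg, sub_neg_eq_add]
  linarith

lemma Cones.lipSet_nonempty {u : E d → ℝ} {Ω : Set (E d)} (h : Cones u Ω) {x : E d}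
    (hx : x ∈ Ω) : (lipSet u Ω x).Nonempty := by
  obtain ⟨R, hR, hsub⟩ := Metric.nhds_basis_closedBall.mem_iff.1 (h.isOpen.mem_nhds hx)
  obtain ⟨e, he, hmax⟩ := h.exists_max_sphere hR hsub
  obtain ⟨r, hr, hsub', hlip⟩ := h.lip_of_above (b := (u (x + R • e) - u x) / R) hR hsub
    (fun y hy => by
      have h1 := hmax y hy
      have h2 : (u (x + R • e) - u x) / R * R = u (x + R • e) - u x := by field_simp
      linarith) one_pos
  exact ⟨_, r, hr, hsub', hlip⟩

lemma Cones.slope_spec {u : E d → ℝ} {Ω : Set (E d)} (h : Cones u Ω) {x : E d}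
    (hx : x ∈ Ω) {ε : ℝ} (hε : 0 < ε) :
    ∃ r > 0, ball x r ⊆ Ω ∧ ∀ y ∈ ball x r, ∀ y' ∈ ball x r,
      u y - u y' ≤ (slope u Ω x + ε) * ‖y - y'‖ := by
  obtain ⟨b, ⟨r, hr, hsub, hb⟩, hlt⟩ := exists_lt_of_csInf_lt (h.lipSet_nonempty hx)
    (lt_add_of_pos_right (sInf (lipSet u Ω x)) hε)
  refine ⟨r, hr, hsub, fun y hy y' hy' => ?_⟩
  refine (hb y hy y' hy').trans ?_
  exact mul_le_mul_of_nonneg_right hlt.le (norm_nonneg _)

lemma slope_le_of_lip {u : E d → ℝ} {Ω : Set (E d)} {x₀ x : E d} {r b : ℝ}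
    (hsub : ball x₀ r ⊆ Ω)
    (hlip : ∀ y ∈ ball x₀ r, ∀ y' ∈ ball x₀ r, u y - u y' ≤ b * ‖y - y'‖)
    (hx : x ∈ ball x₀ r) : slope u Ω x ≤ b := by
  apply csInf_le (bddBelow_lipSet u Ω x)
  have h1 : 0 < r - dist x x₀ := by
    rw [mem_ball] at hx; linarith
  have h2 : ball x (r - dist x x₀) ⊆ ball x₀ r := ball_subset_ball' (by linarith)
  exact ⟨r - dist x x₀, h1, h2.trans hsub, fun y hy y' hy' => hlip y (h2 hy) y' (h2 hy')⟩

/-- Slope bound at a point where `u` attains its maximum over a closed ball, on the boundary. -/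
lemma Cones.slope_ge_of_max {u : E d → ℝ} {Ω : Set (E d)} (h : Cones u Ω) {x z : E d} {r : ℝ}
    (hr : 0 < r) (hxz : dist x z = r) (hb : closedBall z r ⊆ Ω)
    (hmax : ∀ y ∈ closedBall z r, u y ≤ u x) :
    u x - u z ≤ slope u Ω x * r := by
  have hx : x ∈ Ω := hb (by rw [mem_closedBall, hxz])
  set S := (u x - u z) / r with hS
  have hSr : S * r = u x - u z := by rw [hS]; field_simp
  have hcone := h.above z r S hr hb (fun y hy => by
    have := hmax y (sphere_subset_closedBall hy); linarith)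
  suffices hSL : S ≤ slope u Ω x by
    rw [← hSr]; exact mul_le_mul_of_nonneg_right hSL hr.le
  apply le_of_forall_pos_le_add
  intro ε hε
  obtain ⟨r₀, hr₀, -, hlip⟩ := h.slope_spec hx hε
  set τ := min (r / 2) (r₀ / 2) / r with hτ
  have hτ0 : 0 < τ := by positivity
  have hτ1 : τ ≤ 1 / 2 := by
    rw [hτ, div_le_iff₀ hr]
    have := min_le_left (r / 2) (r₀ / 2)
    linarith
  have hτr : τ * r ≤ r₀ / 2 := by
    rw [hτ, div_mul_cancel₀ _ hr.ne']
    exact min_le_right _ _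
  set w := x - τ • (x - z) with hw
  have hxz' : ‖x - z‖ = r := by rw [← dist_eq_norm]; exact hxz
  have hwz : ‖w - z‖ = (1 - τ) * r := by
    have : w - z = (1 - τ) • (x - z) := by
      rw [hw, sub_smul, one_smul]; abel
    rw [this, norm_smul, hxz', Real.norm_of_nonneg (by linarith)]
  have hxw : ‖x - w‖ = τ * r := by
    have : x - w = τ • (x - z) := by rw [hw]; abel
    rw [this, norm_smul, hxz', Real.norm_of_nonneg hτ0.le]
  have h1 : u w ≤ u z + S * ‖w - z‖ := hcone w (by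
    rw [mem_closedBall, dist_eq_norm, hwz]
    have : 0 < τ * r := by positivity
    linarith)
  have h2 : u x - u w ≤ (slope u Ω x + ε) * ‖x - w‖ := by
    apply hlip x (mem_ball_self hr₀) w
    rw [mem_ball, dist_comm, dist_eq_norm, hxw]
    linarith
  rw [hwz] at h1
  rw [hxw] at h2
  have h3 : S * (τ * r) ≤ (slope u Ω x + ε) * (τ * r) := by
    have : S * ((1 - τ) * r) = S * r - S * (τ * r) := by ring
    linarith
  exact le_of_mul_le_mul_right h3 (by positivity)

end nontriv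

end Vale.Agent.P080
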